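import Vale.Agent.P068.Exchange

/-!
P068, part 2: the exchange digraph of a common independent set `J` (possibly infinite) of two
arbitrary matroids, breadth first levels, and the two alternatives: either no sink is reachable
(then `J` splits as required by the intersection property) or `J` can be augmented.
-/

namespace Vale.Agent.P068

open Set

variable {α : Type*}

/-- The pair `(M, N)` satisfies intersection: a common independent set `JM ∪ JN` with
`cl_M JM ∪ cl_N JN` equal to the ground set. -/
def Inter (M N : Matroid α) : Prop :=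
  ∃ JM JN : Set α, Disjoint JM JN ∧ M.Indep (JM ∪ JN) ∧ N.Indep (JM ∪ JN) ∧
    M.closure JM ∪ N.closure JN = M.E

/-- Arcs of the exchange digraph of `J`. -/
def Step (M N : Matroid α) (J : Set α) (u v : α) : Prop :=
  (u ∈ N.closure J ∧ u ∉ J ∧ v ∈ N.fundCircuit u J ∧ v ≠ u) ∨
  (v ∈ M.closure J ∧ v ∉ J ∧ u ∈ M.fundCircuit v J ∧ u ≠ v)

/-- Breadth first levels, starting from the elements not spanned by `J` in `M`. -/
def Lvl (M N : Matroid α) (J : Set α) : ℕ → Set α
  | 0 => {z | z ∈ M.E ∧ z ∉ M.closure J}
  | t + 1 => {v | ∃ u ∈ Lvl M N J t, Step M N J u v}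

variable {M N : Matroid α} {J : Set α}

theorem step_out {u v : α} (h : Step M N J u v) (hu : u ∉ J) :
    u ∈ N.closure J ∧ v ∈ N.fundCircuit u J ∧ v ≠ u ∧ v ∈ J := by
  rcases h with ⟨h1, _, h3, h4⟩ | ⟨_, _, h3, h4⟩
  · refine ⟨h1, h3, h4, ?_⟩
    rcases N.fundCircuit_subset_insert u J h3 with h | h
    · exact absurd h h4
    · exact h
  · rcases M.fundCircuit_subset_insert v J h3 with h | h
    · exact absurd h h4
    · exact absurd h hu

theorem step_in {u v : α} (h : Step M N J u v) (hu : u ∈ J) :
    v ∈ M.closure J ∧ v ∉ J ∧ u ∈ M.fundCircuit v J ∧ u ≠ v := by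
  rcases h with ⟨_, h2, _, _⟩ | h
  · exact absurd hu h2
  · exact h

/-- If no reachable element is a sink, `J` witnesses intersection. -/
theorem inter_of_no_sink (hE : M.E = N.E) (hJM : M.Indep J) (hJN : N.Indep J)
    (h : ∀ t, ∀ v ∈ Lvl M N J t, v ∈ N.closure J) : Inter M N := by
  classical
  let R : Set α := {v | ∃ t, v ∈ Lvl M N J t}
  refine ⟨J \ R, J ∩ R, ?_, ?_, ?_, ?_⟩
  · rw [Set.disjoint_left]
    intro x hx hx'
    exact hx.2 hx'.2
  · rw [sdiff_union_inter]; exact hJM
  · rw [sdiff_union_inter]; exact hJN
  · apply subset_antisymm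
    · apply union_subset (M.closure_subset_ground _)
      rw [hE]; exact N.closure_subset_ground _
    · intro e he
      by_cases heJ : e ∈ J
      · by_cases heR : e ∈ R
        · exact Or.inr (N.mem_closure_of_mem ⟨heJ, heR⟩ (inter_subset_left.trans hJN.subset_ground))
        · exact Or.inl (M.mem_closure_of_mem ⟨heJ, heR⟩ (sdiff_subset.trans hJM.subset_ground))
      · by_cases heR : e ∈ R
        · right
          obtain ⟨t, ht⟩ := heR
          have hcl := h t e ht
          have hC := hJN.fundCircuit_isCircuit hcl heJ
          have h1 := hC.mem_closure_sdiff_singleton_of_mem (N.mem_fundCircuit e J)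
          refine N.closure_subset_closure ?_ h1
          intro w hw
          have hwJ : w ∈ J := by
            rcases N.fundCircuit_subset_insert e J hw.1 with h' | h'
            · exact absurd h' hw.2
            · exact h'
          exact ⟨hwJ, t + 1, e, ht, Or.inl ⟨hcl, heJ, hw.1, hw.2⟩⟩
        · left
          have hcl : e ∈ M.closure J := by
            by_contra hc
            exact heR ⟨0, he, hc⟩
          have hC := hJM.fundCircuit_isCircuit hcl heJ
          have h1 := hC.mem_closure_sdiff_singleton_of_mem (M.mem_fundCircuit e J)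
          refine M.closure_subset_closure ?_ h1
          intro w hw
          have hwJ : w ∈ J := by
            rcases M.fundCircuit_subset_insert e J hw.1 with h' | h'
            · exact absurd h' hw.2
            · exact h'
          refine ⟨hwJ, ?_⟩
          rintro ⟨t, ht⟩
          exact heR ⟨t + 1, w, ht, Or.inr ⟨hcl, heJ, hw.1, hw.2⟩⟩

/-- Every element of level `t` is the end of a walk through the levels `0, ..., t`. -/
theorem exists_walk : ∀ (t : ℕ) (w : α), w ∈ Lvl M N J t →
    ∃ v : ℕ → α, v t = w ∧ (∀ s ≤ t, v s ∈ Lvl M N J s) ∧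
      ∀ s < t, Step M N J (v s) (v (s + 1)) := by
  classical
  intro t
  induction t with
  | zero =>
    intro w hw
    refine ⟨fun _ => w, rfl, ?_, ?_⟩
    · intro s hs
      have : s = 0 := by omega
      subst this
      exact hw
    · intro s hs; omega
  | succ t ih =>
    intro w hw
    obtain ⟨u, hu, hstep⟩ := hw
    obtain ⟨v, hvt, hlv, hst⟩ := ih u hu
    refine ⟨Function.update v (t + 1) w, by simp, ?_, ?_⟩
    · intro s hs
      by_cases hs' : s = t + 1
      · subst hs'
        simp only [Function.update_self]
        exact ⟨u, hu, hstep⟩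
      · rw [Function.update_of_ne hs']
        exact hlv s (by omega)
    · intro s hs
      have h1 : s ≠ t + 1 := by omega
      rw [Function.update_of_ne h1]
      by_cases hs' : s = t
      · subst hs'
        simp only [Function.update_self]
        rw [hvt]; exact hstep
      · have h2 : s + 1 ≠ t + 1 := by omega
        rw [Function.update_of_ne h2]
        exact hst s (by omega)

end Vale.Agent.P068
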