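import Vale.Agent.P068.Augment

/-!
P068, part 3: augmentation along a shortest walk from a source to a sink.
-/

namespace Vale.Agent.P068

open Set

variable {α : Type*} {M N : Matroid α} {J : Set α}

theorem evens_shift (v : ℕ → α) (m : ℕ) (X : Set α) :
    insert (v 0) (X ∪ (fun i => v (2 * i + 2)) '' ((Finset.range m : Finset ℕ) : Set ℕ)) =
      insert (v (2 * m)) (X ∪ (fun i => v (2 * i)) '' ((Finset.range m : Finset ℕ) : Set ℕ)) := by
  ext x
  simp only [mem_insert_iff, mem_union, mem_image, Finset.coe_range, mem_Iio]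
  constructor
  · rintro (h | h | ⟨i, hi, rfl⟩)
    · rcases Nat.eq_zero_or_pos m with hm | hm
      · subst hm; exact Or.inl h
      · exact Or.inr (Or.inr ⟨0, hm, h.symm⟩)
    · exact Or.inr (Or.inl h)
    · by_cases him : i + 1 = m
      · left; subst him; congr 1
      · right; right
        exact ⟨i + 1, by omega, by congr 1⟩
  · rintro (h | h | ⟨i, hi, rfl⟩)
    · rcases Nat.eq_zero_or_pos m with hm | hm
      · subst hm; exact Or.inl h
      · right; right
        refine ⟨m - 1, by omega, ?_⟩
        rw [h]; congr 1; omega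
    · exact Or.inr (Or.inl h)
    · rcases Nat.eq_zero_or_pos i with h0 | h0
      · subst h0; exact Or.inl rfl
      · right; right
        refine ⟨i - 1, by omega, ?_⟩
        congr 1; omega

/-- If a sink is reachable, then `J` can be augmented: there are `K` with the same `M`-closure as
`J` and `z0` outside that closure such that `insert z0 K` is a common independent set. -/
theorem augment (hJM : M.Indep J) (hJN : N.Indep J)
    (h : ∃ t, ∃ v ∈ Lvl M N J t, v ∉ N.closure J) (hE : M.E = N.E) :
    ∃ (K : Set α) (z0 : α), M.closure K = M.closure J ∧ z0 ∈ M.E ∧ z0 ∉ M.closure J ∧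
      M.Indep (insert z0 K) ∧ N.Indep (insert z0 K) := by
  classical
  have hmin : ∀ t < Nat.find h, ¬ ∃ v ∈ Lvl M N J t, v ∉ N.closure J := fun t ht => Nat.find_min h ht
  obtain ⟨w, hw, hwN⟩ := Nat.find_spec h
  generalize Nat.find h = T at hmin hw
  obtain ⟨v, hvT, hlv, hst⟩ := exists_walk T w hw
  have F0 : ∀ j s r, s + j ≤ T → v s ∈ Lvl M N J r → v (s + j) ∈ Lvl M N J (r + j) := by
    intro j
    induction j with
    | zero => intro s r _ hs; exact hs
    | succ j ih =>
      intro s r hsj hs
      exact ⟨v (s + j), ih s r (by omega) hs, hst (s + j) (by omega)⟩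
  have F1 : ∀ s ≤ T, ∀ r < s, v s ∉ Lvl M N J r := by
    intro s hs r hr hmem
    have h1 := F0 (T - s) s r (by omega) hmem
    have h2 : s + (T - s) = T := by omega
    rw [h2, hvT] at h1
    exact hmin (r + (T - s)) (by omega) ⟨w, h1, hwN⟩
  have F2 : ∀ s < T, v s ∈ N.closure J := by
    intro s hs
    by_contra hc
    exact hmin s hs ⟨v s, hlv s hs.le, hc⟩
  have hpar : ∀ i, (2 * i ≤ T → v (2 * i) ∉ J) ∧ (2 * i + 1 ≤ T → v (2 * i + 1) ∈ J) := by
    intro i
    induction i with
    | zero =>
      have h0 : v 0 ∉ J := by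
        intro hJ
        have h1 := hlv 0 (Nat.zero_le _)
        exact h1.2 (M.mem_closure_of_mem hJ hJM.subset_ground)
      refine ⟨fun _ => h0, fun h1 => ?_⟩
      exact (step_out (hst 0 (by omega)) h0).2.2.2
    | succ i ih =>
      have h2 : 2 * (i + 1) ≤ T → v (2 * (i + 1)) ∉ J := by
        intro hle
        have h3 := ih.2 (by omega)
        exact (step_in (hst (2 * i + 1) (by omega)) h3).2.1
      refine ⟨h2, fun hle => ?_⟩
      exact (step_out (hst (2 * (i + 1)) (by omega)) (h2 (by omega))).2.2.2
  obtain ⟨m, hm⟩ : ∃ m, T = 2 * m := by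
    rcases Nat.even_or_odd' T with ⟨m, hm | hm⟩
    · exact ⟨m, hm⟩
    · exfalso
      have h1 := (hpar m).2 (by omega)
      rw [← hm, hvT] at h1
      exact hwN (N.mem_closure_of_mem h1 hJN.subset_ground)
  have hne : ∀ a b, a < b → b ≤ T → v a ≠ v b := by
    intro a b hab hb heq
    exact F1 b hb a hab (heq ▸ hlv a (by omega))
  -- the `M` side
  have hMside := triangular_exchange (M := M) hJM (fun i : ℕ => i) (fun i => v (2 * i + 1))
    (fun i => v (2 * i + 2)) (Finset.range m)
    (by
      intro i hi
      have hi' : i < m := Finset.mem_range.1 hi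
      have h1 := step_in (hst (2 * i + 1) (by omega)) ((hpar i).2 (by omega))
      exact ⟨h1.1, h1.2.1, h1.2.2.1, h1.2.2.2⟩)
    (by
      intro i hi j hj hij hle hmem
      have hi' : i < m := Finset.mem_range.1 hi
      have hj' : j < m := Finset.mem_range.1 hj
      have hlt : i < j := lt_of_le_of_ne hle hij
      have h1 := step_in (hst (2 * j + 1) (by omega)) ((hpar j).2 (by omega))
      have hyJ := (hpar i).2 (by omega)
      have hstep : Step M N J (v (2 * i + 1)) (v (2 * j + 2)) :=
        Or.inr ⟨h1.1, h1.2.1, hmem, fun he => h1.2.1 (he ▸ hyJ)⟩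
      exact F1 (2 * j + 2) (by omega) (2 * i + 2) (by omega)
        ⟨v (2 * i + 1), hlv _ (by omega), hstep⟩)
    (by
      intro i hi j hj hij
      have hi' : i < m := Finset.mem_range.1 hi
      have hj' : j < m := Finset.mem_range.1 hj
      rcases lt_or_gt_of_ne hij with hlt | hlt
      · exact hne _ _ (by omega) (by omega)
      · exact (hne _ _ (by omega) (by omega)).symm)
  -- the `N` side
  have hNside := triangular_exchange (M := N) hJN (fun i : ℕ => m - i) (fun i => v (2 * i + 1))
    (fun i => v (2 * i)) (Finset.range m)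
    (by
      intro i hi
      have hi' : i < m := Finset.mem_range.1 hi
      have h0 := (hpar i).1 (by omega)
      have h1 := step_out (hst (2 * i) (by omega)) h0
      exact ⟨h1.1, h0, h1.2.1, h1.2.2.1⟩)
    (by
      intro i hi j hj hij hle hmem
      have hi' : i < m := Finset.mem_range.1 hi
      have hj' : j < m := Finset.mem_range.1 hj
      have hle' : m - i ≤ m - j := hle
      have hlt : j < i := by omega
      have h0 := (hpar j).1 (by omega)
      have hyJ := (hpar i).2 (by omega)
      have hstep : Step M N J (v (2 * j)) (v (2 * i + 1)) :=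
        Or.inl ⟨F2 _ (by omega), h0, hmem, fun he => h0 (he ▸ hyJ)⟩
      exact F1 (2 * i + 1) (by omega) (2 * j + 1) (by omega)
        ⟨v (2 * j), hlv _ (by omega), hstep⟩)
    (by
      intro i hi j hj hij
      have hi' : i < m := Finset.mem_range.1 hi
      have hj' : j < m := Finset.mem_range.1 hj
      rcases lt_or_gt_of_ne hij with hlt | hlt
      · exact hne _ _ (by omega) (by omega)
      · exact (hne _ _ (by omega) (by omega)).symm)
  have hv0 := hlv 0 (Nat.zero_le _)
  refine ⟨_, v 0, hMside.2, hv0.1, hv0.2, ?_, ?_⟩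
  · have h1 := hv0.2
    rw [← hMside.2] at h1
    exact ((hMside.1.notMem_closure_iff hv0.1).1 h1).1
  · rw [evens_shift]
    have hwE : v (2 * m) ∈ N.E := by
      rw [← hE, ← hm, hvT]
      clear hMside hNside
      rcases T with _ | T
      · exact hw.1
      · obtain ⟨u, _, hu⟩ := hw
        rcases hu with ⟨_, _, h3, _⟩ | ⟨h1, _, _, _⟩
        · exfalso
          rcases N.fundCircuit_subset_insert u J h3 with h' | h'
          · exact hwN (h' ▸ (by assumption))
          · exact hwN (N.mem_closure_of_mem h' hJN.subset_ground)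
        · exact M.closure_subset_ground _ h1
    have h1 : v (2 * m) ∉ N.closure J := by rw [← hm, hvT]; exact hwN
    rw [← hNside.2] at h1
    exact ((hNside.1.notMem_closure_iff hwE).1 h1).1

end Vale.Agent.P068
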