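import Mathlib

/-!
P068, part 1: exchange lemmas for fundamental circuits in arbitrary (possibly infinite) matroids.
-/

namespace Vale.Agent.P068

open Set

variable {α : Type*} {M : Matroid α}

/-- One exchange step along a circuit `C ⊆ insert z I`. -/
theorem exchange_step {I C : Set α} {y z : α} (hI : M.Indep I) (hC : M.IsCircuit C)
    (hCs : C ⊆ insert z I) (hyC : y ∈ C) (hyz : y ≠ z) (hzI : z ∉ I) :
    M.Indep (insert z (I \ {y})) ∧ M.closure (insert z (I \ {y})) = M.closure I := by
  have hCf : C = M.fundCircuit z I := hC.eq_fundCircuit_of_subset hI hCs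
  have hzC : z ∈ C := by rw [hCf]; exact M.mem_fundCircuit z I
  have hzcl : z ∈ M.closure I := by
    have h1 : z ∈ M.closure (C \ {z}) := hC.mem_closure_sdiff_singleton_of_mem hzC
    refine M.closure_subset_closure ?_ h1
    intro x hx
    rcases hCs hx.1 with h | h
    · exact absurd h hx.2
    · exact h
  have hind : M.Indep (insert z I \ {y}) := by
    rw [← hI.mem_fundCircuit_iff hzcl hzI, ← hCf]; exact hyC
  have hset : insert z I \ {y} = insert z (I \ {y}) := by
    ext x
    simp only [mem_sdiff, mem_insert_iff, mem_singleton_iff]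
    constructor
    · rintro ⟨h1 | h1, h2⟩
      · exact Or.inl h1
      · exact Or.inr ⟨h1, h2⟩
    · rintro (h1 | ⟨h1, h2⟩)
      · exact ⟨Or.inl h1, by rw [h1]; exact hyz.symm⟩
      · exact ⟨Or.inr h1, h2⟩
  rw [hset] at hind
  refine ⟨hind, ?_⟩
  have hKE : insert z (I \ {y}) ⊆ M.E := hind.subset_ground
  apply subset_antisymm
  · apply M.closure_subset_closure_of_subset_closure
    intro x hx
    rcases hx with h | h
    · rw [h]; exact hzcl
    · exact M.mem_closure_of_mem h.1 hI.subset_ground
  · apply M.closure_subset_closure_of_subset_closure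
    intro x hx
    by_cases hxy : x = y
    · rw [hxy]
      have h1 : y ∈ M.closure (C \ {y}) := hC.mem_closure_sdiff_singleton_of_mem hyC
      refine M.closure_subset_closure ?_ h1
      intro w hw
      rcases hCs hw.1 with h | h
      · exact Or.inl h
      · exact Or.inr ⟨h, hw.2⟩
    · exact M.mem_closure_of_mem (Or.inr ⟨hx, hxy⟩) hKE

/-- Triangular exchange: finitely many pairs `(y i, z i)` with `y i` on the fundamental circuit of
`z i`, and `y i` off the fundamental circuit of `z j` whenever `i` has priority at most that of `j`,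
can be exchanged simultaneously, without changing the closure. -/
theorem triangular_exchange {ι : Type*} [DecidableEq ι] {I : Set α} (hI : M.Indep I)
    (f : ι → ℕ) (y z : ι → α) (s : Finset ι)
    (h1 : ∀ i ∈ s, z i ∈ M.closure I ∧ z i ∉ I ∧ y i ∈ M.fundCircuit (z i) I ∧ y i ≠ z i)
    (h2 : ∀ i ∈ s, ∀ j ∈ s, i ≠ j → f i ≤ f j → y i ∉ M.fundCircuit (z j) I)
    (h3 : ∀ i ∈ s, ∀ j ∈ s, i ≠ j → z i ≠ z j) :
    M.Indep ((I \ y '' (s : Set ι)) ∪ z '' (s : Set ι)) ∧
      M.closure ((I \ y '' (s : Set ι)) ∪ z '' (s : Set ι)) = M.closure I := by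
  induction s using Finset.induction_on_max_value f with
  | empty => simpa using hI
  | insert a s ha hmax ih =>
    have ih' := ih (fun i hi => h1 i (Finset.mem_insert_of_mem hi))
      (fun i hi j hj => h2 i (Finset.mem_insert_of_mem hi) j (Finset.mem_insert_of_mem hj))
      (fun i hi j hj => h3 i (Finset.mem_insert_of_mem hi) j (Finset.mem_insert_of_mem hj))
    obtain ⟨hza, hzaI, hya, hyza⟩ := h1 a (Finset.mem_insert_self a s)
    have hC : M.IsCircuit (M.fundCircuit (z a) I) := hI.fundCircuit_isCircuit hza hzaI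
    have hne : ∀ x ∈ s, x ≠ a := fun x hx h => ha (h ▸ hx)
    have hoff : ∀ x ∈ s, y x ∉ M.fundCircuit (z a) I := fun x hx =>
      h2 x (Finset.mem_insert_of_mem hx) a (Finset.mem_insert_self a s) (hne x hx) (hmax x hx)
    have hyaI : y a ∈ I := by
      rcases M.fundCircuit_subset_insert (z a) I hya with h | h
      · exact absurd h hyza
      · exact h
    have hCs : M.fundCircuit (z a) I ⊆
        insert (z a) ((I \ y '' (s : Set ι)) ∪ z '' (s : Set ι)) := by
      intro w hw
      rcases M.fundCircuit_subset_insert (z a) I hw with h | h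
      · exact Or.inl h
      · refine Or.inr (Or.inl ⟨h, ?_⟩)
        rintro ⟨x, hx, rfl⟩
        exact hoff x hx hw
    have hzs : z a ∉ (I \ y '' (s : Set ι)) ∪ z '' (s : Set ι) := by
      rintro (h | ⟨x, hx, hxe⟩)
      · exact hzaI h.1
      · exact h3 x (Finset.mem_insert_of_mem hx) a (Finset.mem_insert_self a s) (hne x hx) hxe
    have hstep := exchange_step ih'.1 hC hCs hya hyza hzs
    have hset : (I \ y '' ((insert a s : Finset ι) : Set ι)) ∪ z '' ((insert a s : Finset ι) : Set ι)
        = insert (z a) (((I \ y '' (s : Set ι)) ∪ z '' (s : Set ι)) \ {y a}) := by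
      ext w
      simp only [Finset.coe_insert, image_insert_eq, mem_union, mem_sdiff, mem_insert_iff,
        mem_singleton_iff]
      constructor
      · rintro (⟨hw1, hw2⟩ | hw | hw)
        · refine Or.inr ⟨Or.inl ⟨hw1, fun h => hw2 (Or.inr h)⟩, fun h => hw2 (Or.inl h)⟩
        · exact Or.inl hw
        · refine Or.inr ⟨Or.inr hw, ?_⟩
          obtain ⟨x, hx, rfl⟩ := hw
          intro h
          exact (h1 x (Finset.mem_insert_of_mem hx)).2.1 (h ▸ hyaI)
      · rintro (hw | ⟨⟨hw1, hw2⟩ | hw, hw3⟩)
        · exact Or.inr (Or.inl hw)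
        · refine Or.inl ⟨hw1, ?_⟩
          rintro (h | h)
          · exact hw3 h
          · exact hw2 h
        · exact Or.inr (Or.inr hw)
    rw [hset]
    exact ⟨hstep.1, hstep.2.trans ih'.2⟩

end Vale.Agent.P068
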