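import Vale.Agent.P068.Augment2

/-!
P068, part 4: intersection for arbitrary matroids having an almost spanning common independent set.
-/

namespace Vale.Agent.P068

open Set

variable {α : Type*} {M N : Matroid α}

theorem span_exchange [DecidableEq α] (X : Set α) (e : α) (F : Finset α) :
    e ∈ M.closure (X ∪ (F : Set α)) → e ∉ M.closure X →
      ∃ g ∈ F, g ∈ M.closure (insert e (X ∪ ((F.erase g : Finset α) : Set α))) := by
  induction F using Finset.induction_on with
  | empty =>
    intro h1 h2
    simp only [Finset.coe_empty, union_empty] at h1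
    exact absurd h1 h2
  | insert g F hg ih =>
    intro h1 h2
    by_cases h : e ∈ M.closure (X ∪ (F : Set α))
    · obtain ⟨g', hg', hcl⟩ := ih h h2
      refine ⟨g', Finset.mem_insert_of_mem hg', M.closure_subset_closure ?_ hcl⟩
      apply insert_subset_insert
      apply union_subset_union_right
      intro x hx
      have hx' : x ∈ F.erase g' := hx
      have : x ∈ (insert g F).erase g' := by
        rw [Finset.mem_erase] at hx' ⊢
        exact ⟨hx'.1, Finset.mem_insert_of_mem hx'.2⟩
      exact this
    · refine ⟨g, Finset.mem_insert_self g F, ?_⟩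
      rw [Finset.erase_insert hg]
      have h3 : X ∪ ((insert g F : Finset α) : Set α) = insert g (X ∪ (F : Set α)) := by
        rw [Finset.coe_insert, union_insert]
      rw [h3] at h1
      exact Matroid.mem_closure_insert h h1

theorem inter_of_almost_spanning_aux [DecidableEq α] (hE : M.E = N.E) :
    ∀ (d : ℕ) (J : Set α) (F : Finset α), F.card = d → M.Indep J → N.Indep J →
      (F : Set α) ⊆ M.E → M.E ⊆ M.closure (J ∪ (F : Set α)) → Inter M N := by
  intro d
  induction d with
  | zero =>
    intro J F hF hJM hJN _ hspan
    by_cases h : ∃ t, ∃ v ∈ Lvl M N J t, v ∉ N.closure J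
    · obtain ⟨K, z0, _, hz0E, hz0, _, _⟩ := augment hJM hJN h hE
      obtain ⟨g, hg, _⟩ := span_exchange J z0 F (hspan hz0E) hz0
      rw [Finset.card_eq_zero] at hF
      rw [hF] at hg
      exact absurd hg (Finset.notMem_empty g)
    · refine inter_of_no_sink hE hJM hJN ?_
      intro t v hv
      by_contra hc
      exact h ⟨t, v, hv, hc⟩
  | succ d ih =>
    intro J F hF hJM hJN hFE hspan
    by_cases h : ∃ t, ∃ v ∈ Lvl M N J t, v ∉ N.closure J
    · obtain ⟨K, z0, hK, hz0E, hz0, hMi, hNi⟩ := augment hJM hJN h hE
      obtain ⟨g, hg, hgcl⟩ := span_exchange J z0 F (hspan hz0E) hz0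
      have hFE' : ((F.erase g : Finset α) : Set α) ⊆ M.E := by
        intro x hx
        have hx' : x ∈ F.erase g := hx
        exact hFE (Finset.mem_of_mem_erase hx')
      have hSE : insert z0 K ∪ ((F.erase g : Finset α) : Set α) ⊆ M.E :=
        union_subset hMi.subset_ground hFE'
      refine ih (insert z0 K) (F.erase g) (by rw [Finset.card_erase_of_mem hg, hF]; rfl) hMi hNi
        hFE' ?_
      refine hspan.trans (M.closure_subset_closure_of_subset_closure ?_)
      have hJS : J ⊆ M.closure (insert z0 K ∪ ((F.erase g : Finset α) : Set α)) := by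
        intro x hx
        have h1 : x ∈ M.closure K := by
          rw [hK]; exact M.mem_closure_of_mem hx hJM.subset_ground
        exact M.closure_subset_closure
          ((subset_insert z0 K).trans subset_union_left) h1
      have hFS : ((F.erase g : Finset α) : Set α) ⊆
          M.closure (insert z0 K ∪ ((F.erase g : Finset α) : Set α)) := by
        intro x hx
        exact M.mem_closure_of_mem (Or.inr hx) hSE
      intro x hx
      rcases hx with hx | hx
      · exact hJS hx
      · by_cases hxg : x = g
        · rw [hxg]
          refine M.closure_subset_closure_of_subset_closure ?_ hgcl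
          intro w hw
          rcases hw with hw | hw | hw
          · rw [hw]
            exact M.mem_closure_of_mem (Or.inl (mem_insert z0 K)) hSE
          · exact hJS hw
          · exact hFS hw
        · have hx' : x ∈ F := hx
          exact hFS (show x ∈ F.erase g from Finset.mem_erase.2 ⟨hxg, hx'⟩)
    · refine inter_of_no_sink hE hJM hJN ?_
      intro t v hv
      by_contra hc
      exact h ⟨t, v, hv, hc⟩

/-- Intersection holds as soon as some common independent set becomes spanning in `M` after adding
finitely many elements. -/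
theorem inter_of_almost_spanning (hE : M.E = N.E) {J F : Set α} (hF : F.Finite) (hFE : F ⊆ M.E)
    (hJM : M.Indep J) (hJN : N.Indep J) (hspan : M.E ⊆ M.closure (J ∪ F)) : Inter M N := by
  classical
  refine inter_of_almost_spanning_aux hE _ J hF.toFinset rfl hJM hJN ?_ ?_
  · rw [hF.coe_toFinset]; exact hFE
  · rw [hF.coe_toFinset]; exact hspan

theorem Inter.symm (hE : M.E = N.E) (h : Inter M N) : Inter N M := by
  obtain ⟨JM, JN, h1, h2, h3, h4⟩ := h
  refine ⟨JN, JM, h1.symm, ?_, ?_, ?_⟩
  · rw [union_comm]; exact h3
  · rw [union_comm]; exact h2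
  · rw [union_comm, h4, hE]

theorem inter_of_rankFinite (hE : M.E = N.E) [M.RankFinite] : Inter M N := by
  obtain ⟨B, hB⟩ := M.exists_isBase
  refine inter_of_almost_spanning hE (J := ∅) hB.finite hB.subset_ground M.empty_indep
    N.empty_indep ?_
  rw [empty_union, hB.closure_eq]

theorem inter_of_dual_rankFinite (hE : M.E = N.E) [N✶.RankFinite] : Inter M N := by
  obtain ⟨B, hB⟩ := M.exists_isBase
  have hBN : B ⊆ N.E := hE ▸ hB.subset_ground
  obtain ⟨J, hJ⟩ := N.exists_isBasis B hBN
  obtain ⟨BN, hBNb, hJBN⟩ := hJ.indep.exists_isBase_superset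
  have hfin : (N.E \ BN).Finite := hBNb.compl_isBase_dual.finite
  have hsub : B \ J ⊆ N.E \ BN := by
    intro x hx
    refine ⟨hBN hx.1, fun hxB => hx.2 ?_⟩
    exact hJ.mem_of_insert_indep hx.1 (hBNb.indep.subset (insert_subset hxB hJBN))
  refine inter_of_almost_spanning hE (J := J) (F := B \ J) (hfin.subset hsub)
    (sdiff_subset.trans hB.subset_ground) (hB.indep.subset hJ.subset) hJ.indep ?_
  rw [union_sdiff_cancel hJ.subset, hB.closure_eq]

end Vale.Agent.P068
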